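import Mathlib

namespace Vale.Agent.Lib.P328

/-- The set `Ω(r,c)` of `m × n` contingency tables (matrices of natural numbers) with
row sums `r` and column sums `c`. -/
def tables {m n : ℕ} (r : Fin m → ℕ) (c : Fin n → ℕ) : Set (Fin m → Fin n → ℕ) :=
  {X | (∀ i, ∑ j, X i j = r i) ∧ (∀ j, ∑ i, X i j = c j)}

end Vale.Agent.Lib.P328
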