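import Vale.Agent.Lib.P328.Defs

namespace Vale.Agent.Lib.P328

open Finset

theorem card_antidiagonalTuple_succ (n k : ℕ) :
    (Finset.Nat.antidiagonalTuple (n + 1) k).card = (k + n).choose n := by
  classical
  rw [← Finset.piAntidiag_univ_fin_eq_antidiagonalTuple, ← Finset.map_sym_eq_piAntidiag,
    Finset.card_map, Finset.sym_univ, Finset.card_univ, Sym.card_sym_eq_choose, Fintype.card_fin]
  have : n + 1 + k - 1 = k + n := by omega
  rw [this, Nat.choose_symm_add]

/-- Reconstruct a table from its rows `1, …, m`: row `0` is what is left of the column sums. -/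
def fillFirstRow {m n : ℕ} (c : Fin n → ℕ) (y : Fin m → Fin n → ℕ) : Fin (m + 1) → Fin n → ℕ :=
  Fin.cons (fun j => c j - ∑ i, y i j) y

theorem fillFirstRow_injective {m n : ℕ} (c : Fin n → ℕ) :
    Function.Injective (fillFirstRow (m := m) c) := by
  intro y y' h
  have := congrArg Fin.tail h
  simpa [fillFirstRow] using this

theorem tables_eq_image {m n : ℕ} (r : Fin (m + 1) → ℕ) (c : Fin (n + 1) → ℕ)
    (hsum : ∑ i, r i = ∑ j, c j)
    (hdom : ∀ j, ∑ i : Fin m, r i.succ ≤ c j) :
    tables r c = fillFirstRow c ''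
      ((Fintype.piFinset fun i : Fin m => Finset.Nat.antidiagonalTuple (n + 1) (r i.succ) :
        Finset (Fin m → Fin (n + 1) → ℕ)) : Set (Fin m → Fin (n + 1) → ℕ)) := by
  ext X
  constructor
  · rintro ⟨hrow, hcol⟩
    refine ⟨Fin.tail X, ?_, ?_⟩
    · simp only [Finset.mem_coe, Fintype.mem_piFinset, Finset.Nat.mem_antidiagonalTuple]
      intro i
      exact hrow i.succ
    · have h0 : (fun j => c j - ∑ i, Fin.tail X i j) = X 0 := by
        funext j
        have := hcol j
        rw [Fin.sum_univ_succ] at this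
        simp only [Fin.tail]
        omega
      unfold fillFirstRow
      rw [h0]
      exact Fin.cons_self_tail X
  · rintro ⟨y, hy, rfl⟩
    simp only [Finset.mem_coe, Fintype.mem_piFinset, Finset.Nat.mem_antidiagonalTuple] at hy
    have hle : ∀ j, ∑ i, y i j ≤ c j := by
      intro j
      refine le_trans (Finset.sum_le_sum fun i _ => ?_) (hdom j)
      rw [← hy i]
      exact Finset.single_le_sum (f := fun j => y i j) (fun _ _ => Nat.zero_le _)
        (Finset.mem_univ j)
    constructor
    · intro i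
      refine Fin.cases ?_ (fun i => ?_) i
      · simp only [fillFirstRow, Fin.cons_zero]
        have h1 : ∑ j, (c j - ∑ i, y i j) + ∑ j, ∑ i, y i j = ∑ j, c j := by
          rw [← Finset.sum_add_distrib]
          exact Finset.sum_congr rfl fun j _ => Nat.sub_add_cancel (hle j)
        have h2 : ∑ j, ∑ i, y i j = ∑ i : Fin m, r i.succ := by
          rw [Finset.sum_comm]
          exact Finset.sum_congr rfl fun i _ => hy i
        rw [Fin.sum_univ_succ] at hsum
        omega
      · simp only [fillFirstRow, Fin.cons_succ]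
        exact hy i
    · intro j
      rw [Fin.sum_univ_succ]
      simp only [fillFirstRow, Fin.cons_zero, Fin.cons_succ]
      exact Nat.sub_add_cancel (hle j)

theorem ncard_tables_dominant {m n : ℕ} (r : Fin (m + 1) → ℕ) (c : Fin (n + 1) → ℕ)
    (hsum : ∑ i, r i = ∑ j, c j)
    (hdom : ∀ j, ∑ i : Fin m, r i.succ ≤ c j) :
    (tables r c).ncard = ∏ i : Fin m, (r i.succ + n).choose n := by
  rw [tables_eq_image r c hsum hdom, (fillFirstRow_injective c).injOn.ncard_image,
    Set.ncard_coe_finset, Fintype.card_piFinset]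
  exact Finset.prod_congr rfl fun i _ => card_antidiagonalTuple_succ n (r i.succ)



theorem bijOn_tail_dominant {m n : ℕ} (r : Fin (m + 1) → ℕ) (c : Fin (n + 1) → ℕ)
    (hsum : ∑ i, r i = ∑ j, c j)
    (hdom : ∀ j, ∑ i : Fin m, r i.succ ≤ c j) :
    Set.BijOn (fun (X : Fin (m + 1) → Fin (n + 1) → ℕ) (i : Fin m) => X i.succ) (tables r c)
      {y : Fin m → Fin (n + 1) → ℕ | ∀ i, ∑ j, y i j = r i.succ} := by
  have hS : ({y : Fin m → Fin (n + 1) → ℕ | ∀ i, ∑ j, y i j = r i.succ} : Set _) =
      ((Fintype.piFinset fun i : Fin m => Finset.Nat.antidiagonalTuple (n + 1) (r i.succ) :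
        Finset (Fin m → Fin (n + 1) → ℕ)) : Set (Fin m → Fin (n + 1) → ℕ)) := by
    ext y
    simp [Finset.Nat.mem_antidiagonalTuple]
  rw [hS, tables_eq_image r c hsum hdom]
  refine ⟨?_, ?_, ?_⟩
  · rintro _ ⟨y, hy, rfl⟩
    simpa [fillFirstRow] using hy
  · rintro _ ⟨y, hy, rfl⟩ _ ⟨y', hy', rfl⟩ h
    have h' : y = y' := by simpa [fillFirstRow] using h
    rw [h']
  · intro y hy
    exact ⟨_, ⟨y, hy, rfl⟩, by simp [fillFirstRow]⟩

end Vale.Agent.Lib.P328
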